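import Vale.Agent.P043.T2.Defs

/-!
# P043 in the plane: row LIN

For almost every `x` the vertical line over `x` is partitioned exactly by the sub-rows of the tiles.
-/

namespace Vale.Agent.P043.T2.H649

open MeasureTheory Set Filter Topology

theorem al_pos : 0 < al := by unfold al; norm_num

/-- the cell of a point -/
noncomputable def cel (a : ℝ × ℝ) : ℤ × ℤ := (⌊a.1 / al⌋, ⌊200 * a.2⌋)

/-- separated sets have at most one point in every cell -/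
theorem cel_inj {A : Set (ℝ × ℝ)}
    (h : ∀ a ∈ A, ∀ b ∈ A, a ≠ b → al ≤ |a.1 - b.1| ∨ 1 / 200 ≤ |a.2 - b.2|) :
    InjOn cel A := by
  intro a ha b hb hab
  by_contra hne
  have h1 : ⌊a.1 / al⌋ = ⌊b.1 / al⌋ := congrArg Prod.fst hab
  have h2 : ⌊200 * a.2⌋ = ⌊200 * b.2⌋ := congrArg Prod.snd hab
  have h3 := Int.abs_sub_lt_one_of_floor_eq_floor h1
  have h4 := Int.abs_sub_lt_one_of_floor_eq_floor h2
  rcases h a ha b hb hne with h5 | h5
  · rw [← sub_div, abs_div, abs_of_pos al_pos, div_lt_one al_pos] at h3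
    linarith
  · rw [← mul_sub, abs_mul] at h4
    norm_num at h4
    linarith

theorem countable_of_sep {A : Set (ℝ × ℝ)}
    (h : ∀ a ∈ A, ∀ b ∈ A, a ≠ b → al ≤ |a.1 - b.1| ∨ 1 / 200 ≤ |a.2 - b.2|) :
    A.Countable :=
  countable_of_injective_of_countable_image (cel_inj h) (Set.to_countable _)

/-- local finiteness -/
theorem finite_of_sep {A : Set (ℝ × ℝ)}
    (h : ∀ a ∈ A, ∀ b ∈ A, a ≠ b → al ≤ |a.1 - b.1| ∨ 1 / 200 ≤ |a.2 - b.2|)
    (l u l' u' : ℝ) : {a | a ∈ A ∧ (l ≤ a.1 ∧ a.1 ≤ u) ∧ (l' ≤ a.2 ∧ a.2 ≤ u')}.Finite := by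
  refine Set.Finite.of_finite_image (f := cel) ?_ ((cel_inj h).mono fun a ha => ha.1)
  refine ((Set.finite_Icc ⌊l / al⌋ ⌊u / al⌋).prod
    (Set.finite_Icc ⌊200 * l'⌋ ⌊200 * u'⌋)).subset ?_
  rintro _ ⟨a, ⟨-, ⟨h1, h2⟩, h3, h4⟩, rfl⟩
  have hal := al_pos
  refine ⟨⟨Int.floor_le_floor (by gcongr), Int.floor_le_floor (by gcongr)⟩,
    Int.floor_le_floor (by linarith), Int.floor_le_floor (by linarith)⟩

theorem row_bd (τ : Bool) (i : Ix) : 0 ≤ row τ i ∧ row τ i < 2000000 := by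
  have h1 := i.1.isLt
  have h2 := i.2.1.isLt
  have h3 := i.2.2.1.isLt
  have h4 := i.2.2.2.isLt
  unfold row
  split_ifs <;> constructor <;> omega

/-- the residues of a row number determine the coordinates -/
theorem res_inj {A B C D A' B' C' D' : ℤ}
    (h : 11025 * A + 34300 * B + 15876 * C + 27000 * D =
      11025 * A' + 34300 * B' + 15876 * C' + 27000 * D')
    (hA : |A - A'| < 4) (hB : |B - B'| < 9) (hC : |C - C'| < 25) (hD : |D - D'| < 49) :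
    A = A' ∧ B = B' ∧ C = C' ∧ D = D' := by
  rw [abs_lt] at hA hB hC hD
  obtain ⟨k4, h4⟩ : ∃ k : ℤ, 11025 * (A - A') = 4 * k :=
    ⟨8575 * (B' - B) + 3969 * (C' - C) + 6750 * (D' - D), by linarith⟩
  obtain ⟨k9, h9⟩ : ∃ k : ℤ, 34300 * (B - B') = 9 * k :=
    ⟨1225 * (A' - A) + 1764 * (C' - C) + 3000 * (D' - D), by linarith⟩
  obtain ⟨k25, h25⟩ : ∃ k : ℤ, 15876 * (C - C') = 25 * k :=
    ⟨441 * (A' - A) + 1372 * (B' - B) + 1080 * (D' - D), by linarith⟩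
  obtain ⟨k49, h49⟩ : ∃ k : ℤ, 27000 * (D - D') = 49 * k :=
    ⟨225 * (A' - A) + 700 * (B' - B) + 324 * (C' - C), by linarith⟩
  clear h
  refine ⟨?_, ?_, ?_, ?_⟩
  · clear h9 h25 h49 hB hC hD
    omega
  · clear h4 h25 h49 hA hC hD
    omega
  · clear h4 h9 h49 hA hB hD
    omega
  · clear h4 h9 h25 hA hB hC
    omega

theorem row_true (i : Ix) : row true i = 11025 * (i.1 : ℕ) + 34300 * (i.2.1 : ℕ) +
    15876 * (5 * (i.2.2.1 : ℕ)) + 27000 * (7 * (i.2.2.2 : ℕ)) := by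
  unfold row
  rw [if_pos rfl]

theorem row_false (i : Ix) : row false i = 11025 * (2 * (i.1 : ℕ)) + 34300 * (3 * (i.2.1 : ℕ)) +
    15876 * (i.2.2.1 : ℕ) + 27000 * (i.2.2.2 : ℕ) := by
  unfold row
  rw [if_neg Bool.false_ne_true]

theorem key_false {a b c d a' b' c' d' : ℕ} (h1 : a < 2) (h2 : b < 3) (h3 : c < 5) (h4 : d < 7)
    (h1' : a' < 2) (h2' : b' < 3) (h3' : c' < 5) (h4' : d' < 7)
    (h : 11025 * (2 * (a : ℤ)) + 34300 * (3 * (b : ℤ)) + 15876 * (c : ℤ) + 27000 * (d : ℤ) =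
      11025 * (2 * (a' : ℤ)) + 34300 * (3 * (b' : ℤ)) + 15876 * (c' : ℤ) + 27000 * (d' : ℤ)) :
    a = a' ∧ b = b' ∧ c = c' ∧ d = d' := by
  have hA : |(2 * (a : ℤ)) - 2 * (a' : ℤ)| < 4 := by clear h; rw [abs_lt]; omega
  have hB : |(3 * (b : ℤ)) - 3 * (b' : ℤ)| < 9 := by clear h hA; rw [abs_lt]; omega
  have hC : |(c : ℤ) - (c' : ℤ)| < 25 := by clear h hA hB; rw [abs_lt]; omega
  have hD : |(d : ℤ) - (d' : ℤ)| < 49 := by clear h hA hB hC; rw [abs_lt]; omega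
  obtain ⟨e1, e2, e3, e4⟩ := res_inj h hA hB hC hD
  clear h hA hB hC hD
  omega

theorem key_true {a b c d a' b' c' d' : ℕ} (h1 : a < 2) (h2 : b < 3) (h3 : c < 5) (h4 : d < 7)
    (h1' : a' < 2) (h2' : b' < 3) (h3' : c' < 5) (h4' : d' < 7)
    (h : 11025 * (a : ℤ) + 34300 * (b : ℤ) + 15876 * (5 * (c : ℤ)) + 27000 * (7 * (d : ℤ)) =
      11025 * (a' : ℤ) + 34300 * (b' : ℤ) + 15876 * (5 * (c' : ℤ)) + 27000 * (7 * (d' : ℤ))) :
    a = a' ∧ b = b' ∧ c = c' ∧ d = d' := by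
  have hA : |(a : ℤ) - (a' : ℤ)| < 4 := by clear h; rw [abs_lt]; omega
  have hB : |(b : ℤ) - (b' : ℤ)| < 9 := by clear h hA; rw [abs_lt]; omega
  have hC : |(5 * (c : ℤ)) - 5 * (c' : ℤ)| < 25 := by clear h hA hB; rw [abs_lt]; omega
  have hD : |(7 * (d : ℤ)) - 7 * (d' : ℤ)| < 49 := by clear h hA hB hC; rw [abs_lt]; omega
  obtain ⟨e1, e2, e3, e4⟩ := res_inj h hA hB hC hD
  clear h hA hB hC hD
  omega

theorem row_inj (τ : Bool) : Function.Injective (row τ) := by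
  intro i i' h
  have key : (i.1 : ℕ) = i'.1 ∧ (i.2.1 : ℕ) = i'.2.1 ∧ (i.2.2.1 : ℕ) = i'.2.2.1 ∧
      (i.2.2.2 : ℕ) = i'.2.2.2 := by
    cases τ
    · rw [row_false, row_false] at h
      exact key_false i.1.isLt i.2.1.isLt i.2.2.1.isLt i.2.2.2.isLt i'.1.isLt i'.2.1.isLt
        i'.2.2.1.isLt i'.2.2.2.isLt h
    · rw [row_true, row_true] at h
      exact key_true i.1.isLt i.2.1.isLt i.2.2.1.isLt i.2.2.2.isLt i'.1.isLt i'.2.1.isLt
        i'.2.2.1.isLt i'.2.2.2.isLt h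
  exact Prod.ext (Fin.ext key.1) (Prod.ext (Fin.ext key.2.1)
    (Prod.ext (Fin.ext key.2.2.1) (Fin.ext key.2.2.2)))

theorem st_rowinj : StRowInj := row_inj

theorem rw_inj (k : Fin 5) : Function.Injective (rw k) := row_inj (ty k)

/-- the sub-rows are half open intervals in `[0,1)` -/
theorem II_sub (j : Fin 9) {y : ℝ} (hy : y ∈ II j) : 0 ≤ y ∧ y < 1 := by
  obtain ⟨h1, h2⟩ := hy
  have h3 : (hi j : ℝ) ≤ 200 := by
    have : ∀ j : Fin 9, hi j ≤ 200 := by decide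
    exact_mod_cast this j
  have h4 : (0 : ℝ) ≤ (lo j : ℝ) := Nat.cast_nonneg _
  constructor
  · have : (0 : ℝ) ≤ (lo j : ℝ) / 200 := by positivity
    linarith
  · have : (hi j : ℝ) / 200 ≤ 1 := by linarith
    linarith

theorem II_disj {j j' : Fin 9} {y : ℝ} (h : y ∈ II j) (h' : y ∈ II j') : j = j' := by
  by_contra hne
  have key : ∀ j j' : Fin 9, j ≠ j' → hi j ≤ lo j' ∨ hi j' ≤ lo j := by decide
  obtain ⟨h1, h2⟩ := h
  obtain ⟨h3, h4⟩ := h'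
  rcases key j j' hne with h5 | h5
  · have : (hi j : ℝ) ≤ (lo j' : ℝ) := by exact_mod_cast h5
    linarith
  · have : (hi j' : ℝ) ≤ (lo j : ℝ) := by exact_mod_cast h5
    linarith

/-- right continuity -/
theorem ico_right (l u c y : ℝ) :
    ∀ᶠ y' in 𝓝[>] y, (y' - c ∈ Ico l u ↔ y - c ∈ Ico l u) := by
  have hgt : ∀ᶠ y' in 𝓝[>] y, y < y' := eventually_mem_nhdsWithin
  rcases lt_or_ge (y - c) l with h | h
  · have h1 : ∀ᶠ y' in 𝓝[>] y, y' < l + c :=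
      mem_nhdsWithin_of_mem_nhds (Iio_mem_nhds (by linarith))
    filter_upwards [h1] with y' h2
    constructor
    · rintro ⟨h3, -⟩; linarith
    · rintro ⟨h3, -⟩; linarith
  · rcases lt_or_ge (y - c) u with h' | h'
    · have h1 : ∀ᶠ y' in 𝓝[>] y, y' < u + c :=
        mem_nhdsWithin_of_mem_nhds (Iio_mem_nhds (by linarith))
      filter_upwards [h1, hgt] with y' h2 h3
      exact ⟨fun _ => ⟨h, h'⟩, fun _ => ⟨by linarith, by linarith⟩⟩
    · filter_upwards [hgt] with y' h3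
      constructor
      · rintro ⟨-, h4⟩; linarith
      · rintro ⟨-, h4⟩; linarith

/-- an almost everywhere property holds somewhere right of `y`, arbitrarily near -/
theorem ae_right {P R : ℝ → Prop} {y : ℝ} (hP : ∀ᵐ y' : ℝ, P y') (hR : ∀ᶠ y' in 𝓝[>] y, R y') :
    ∃ y', P y' ∧ R y' := by
  obtain ⟨b, hb, hsub⟩ := mem_nhdsGT_iff_exists_Ioo_subset.1 hR
  by_contra hcon
  push Not at hcon
  have h1 : Ioo y b ⊆ {y' | ¬ P y'} := fun y' hy' hp => hcon y' hp (hsub hy')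
  have h2 : volume {y' | ¬ P y'} = 0 := ae_iff.1 hP
  have h3 := measure_mono_null h1 h2
  rw [Real.volume_Ioo, ENNReal.ofReal_eq_zero] at h3
  have : y < b := hb
  linarith

/-- the property of the row LIN at a point -/
def At (t : ℝ) (A : Set (ℝ × ℝ)) (x y : ℝ) (q : Fin 9 × ((ℝ × ℝ) × Ix)) : Prop :=
  q.2.1 ∈ A ∧ x - q.2.1.1 ∈ E t (sty q.1) q.2.2 ∧
    y - q.2.1.2 - (rw (sty q.1) q.2.2 : ℝ) ∈ II q.1

theorem At.om {t : ℝ} {A : Set (ℝ × ℝ)} {x y : ℝ} {q : Fin 9 × ((ℝ × ℝ) × Ix)}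
    (h : At t A x y q) : (x, y) - q.2.1 ∈ Om t := ⟨q.1, q.2.2, h.2.1, h.2.2⟩

/-- inside one tile the piece is unique -/
theorem At.uniq {t : ℝ} {A : Set (ℝ × ℝ)} {x y : ℝ} {q q' : Fin 9 × ((ℝ × ℝ) × Ix)}
    (h : At t A x y q) (h' : At t A x y q') (ha : q.2.1 = q'.2.1) : q = q' := by
  obtain ⟨j, a, i⟩ := q
  obtain ⟨j', a', i'⟩ := q'
  obtain rfl : a = a' := ha
  obtain ⟨-, -, h3⟩ := h
  obtain ⟨-, -, h3'⟩ := h'
  simp only at h3 h3'
  obtain ⟨k1, k2⟩ := II_sub j h3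
  obtain ⟨k1', k2'⟩ := II_sub j' h3'
  have e : rw (sty j) i = rw (sty j') i' := by
    have e1 : ⌊y - a.2⌋ = rw (sty j) i := Int.floor_eq_iff.2 ⟨by linarith, by linarith⟩
    have e2 : ⌊y - a.2⌋ = rw (sty j') i' := Int.floor_eq_iff.2 ⟨by linarith, by linarith⟩
    rw [← e1, e2]
  rw [← e] at h3'
  obtain rfl := II_disj h3 h3'
  obtain rfl := rw_inj _ e
  rfl

theorem st_lin (hsep : StSep) (hme : StMe) : StLin := by
  intro t ht A hA
  have hs := hsep t ht A hA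
  have hc := countable_of_sep hs
  obtain ⟨hcov, hdis⟩ := hA
  have h1 : ∀ᵐ p : ℝ × ℝ, (∃ a ∈ A, p - a ∈ Om t) ∧
      ∀ a ∈ A, ∀ b ∈ A, a ≠ b → ¬ (p - a ∈ Om t ∧ p - b ∈ Om t) := by
    refine hcov.and ((ae_ball_iff hc).2 fun a ha => (ae_ball_iff hc).2 fun b hb => ?_)
    by_cases hab : a = b
    · exact Eventually.of_forall fun p h => absurd hab h
    · filter_upwards [hdis a ha b hb hab] with p hp _ using hp
  rw [Measure.volume_eq_prod] at h1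
  filter_upwards [Measure.ae_ae_of_ae_prod h1] with x hx
  -- almost every `y`
  have hP : ∀ᵐ y : ℝ, ∃! q, At t A x y q := by
    filter_upwards [hx] with y hy
    obtain ⟨⟨a, ha, j, i, h2, h3⟩, h4⟩ := hy
    refine ⟨(j, (a, i)), ⟨ha, h2, h3⟩, fun q hq => ?_⟩
    have hq' : At t A x y (j, (a, i)) := ⟨ha, h2, h3⟩
    refine hq.uniq hq' ?_
    by_contra hne
    exact h4 _ hq.1 _ ha hne ⟨hq.om, hq'.om⟩
  intro y
  -- only finitely many pieces are near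
  set F : Set (Fin 9 × ((ℝ × ℝ) × Ix)) :=
    {q | ∃ y', y ≤ y' ∧ y' ≤ y + 1 ∧ At t A x y' q} with hF
  have hFf : F.Finite := by
    refine ((Set.toFinite (univ : Set (Fin 9))).prod
      ((finite_of_sep hs (x - 2) x (y - 2000001) (y + 1)).prod
        (Set.toFinite (univ : Set Ix)))).subset ?_
    rintro ⟨j, a, i⟩ ⟨y', hy1, hy2, ha, h2, h3⟩
    simp only at ha h2 h3
    obtain ⟨k1, k2⟩ := II_sub j h3
    obtain ⟨m1, m2⟩ := (hme t).2.2 _ _ h2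
    obtain ⟨b1, b2⟩ := row_bd (ty (sty j)) i
    have b1' : (0 : ℝ) ≤ (rw (sty j) i : ℝ) := by
      have : (0 : ℤ) ≤ rw (sty j) i := b1
      exact_mod_cast this
    have b2' : (rw (sty j) i : ℝ) < 2000000 := by
      have : rw (sty j) i < 2000000 := b2
      exact_mod_cast this
    exact ⟨mem_univ _, ⟨ha, ⟨by linarith, by linarith⟩, by linarith, by linarith⟩, mem_univ _⟩
  have hR : ∀ᶠ y' in 𝓝[>] y, ∀ q, At t A x y' q ↔ At t A x y q := by
    have e1 : ∀ᶠ y' in 𝓝[>] y, ∀ q ∈ F, (At t A x y' q ↔ At t A x y q) := by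
      refine (eventually_all_finite hFf).2 fun q _ => ?_
      filter_upwards [ico_right ((lo q.1 : ℝ) / 200) ((hi q.1 : ℝ) / 200)
        (q.2.1.2 + (rw (sty q.1) q.2.2 : ℝ)) y] with y' h2
      unfold At II
      rw [← sub_sub, ← sub_sub] at h2
      rw [h2]
    have e2 : ∀ᶠ y' in 𝓝[>] y, y' ≤ y + 1 :=
      mem_nhdsWithin_of_mem_nhds (Iic_mem_nhds (by linarith))
    have hgt : ∀ᶠ y' in 𝓝[>] y, y < y' := eventually_mem_nhdsWithin
    filter_upwards [e1, e2, hgt] with y' h2 h3 h4 q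
    constructor
    · intro hq
      exact (h2 q ⟨y', h4.le, h3, hq⟩).1 hq
    · intro hq
      exact (h2 q ⟨y, le_rfl, by linarith, hq⟩).2 hq
  obtain ⟨y', ⟨q, hq, hu⟩, hy'⟩ := ae_right hP hR
  exact ⟨q, (hy' q).1 hq, fun q' hq' => hu q' ((hy' q').2 hq')⟩

end Vale.Agent.P043.T2.H649
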